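import Vale.Agent.Lib.P072.Logistic

namespace Vale.Agent.Results.P072.TowerPermanent

open Vale.Agent.P072

/-- Every network obtained from copies of `X ⇌ 2X` and `0 ⇌ X` by iterated catalytic cascades is
weakly reversible and permanent on every positive stoichiometric class for all positive rate
constants (and also for continuous time-dependent rates with values in `[ε, ε⁻¹]`). -/
theorem result {ι : Type} [Fintype ι] (N : Network ι) (hN : Tower ι N) :
    WeaklyReversible N ∧ VarPermanent N ∧
      ∀ k : Cplx ι × Cplx ι → ℝ, (∀ r ∈ N.R, 0 < k r) →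
        ∀ c : ι → ℝ, (∀ i, 0 < c i) → PermanentOn N k c := by
  have key : WeaklyReversible N ∧ VarPermanent N := by
    induction hN with
    | logistic => exact ⟨weaklyReversible_logistic, varPermanent_logistic⟩
    | inout => exact ⟨weaklyReversible_inout, varPermanent_inout⟩
    | cascade N₁ N₂ γ hγ _ _ ih₁ ih₂ =>
      exact ⟨weaklyReversible_cascade γ ih₁.1 ih₂.1, varPermanent_cascade N₁ N₂ γ hγ ih₁.2 ih₂.2⟩
  exact ⟨key.1, key.2, fun k hk c hc => key.2.permanentOn k hk c hc⟩

end Vale.Agent.Results.P072.TowerPermanent
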