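import Vale.Agent.Results.P072.CascadeClosure
import Vale.Agent.Results.P072.TowerPermanent

/-!
# P072: the two permanence results, stated together

(1) Catalytic cascades preserve weak reversibility and variable-rate permanence, and variable-rate
permanence gives permanence for all positive constant rates on every positive class.
(2) Every network built from `X ⇌ 2X` and `0 ⇌ X` by iterated catalytic cascades is weakly
reversible and permanent.
-/

namespace Vale.Agent.Results.P072.AllResults

open Vale.Agent.P072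

theorem result :
    (∀ (ι κ : Type) [Fintype ι] [Fintype κ] (N₁ : Network ι) (N₂ : Network κ)
      (γ : Cplx κ → Cplx ι), (∀ r ∈ N₂.R, γ r.1 = γ r.2) →
      (WeaklyReversible N₁ → WeaklyReversible N₂ → WeaklyReversible (cascade N₁ N₂ γ)) ∧
      (VarPermanent N₁ → VarPermanent N₂ →
        VarPermanent (cascade N₁ N₂ γ) ∧
        ∀ k : Cplx (ι ⊕ κ) × Cplx (ι ⊕ κ) → ℝ, (∀ r ∈ (cascade N₁ N₂ γ).R, 0 < k r) →
          ∀ c : ι ⊕ κ → ℝ, (∀ i, 0 < c i) → PermanentOn (cascade N₁ N₂ γ) k c)) ∧
    (∀ (ι : Type) [Fintype ι] (N : Network ι), Tower ι N →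
      WeaklyReversible N ∧ VarPermanent N ∧
        ∀ k : Cplx ι × Cplx ι → ℝ, (∀ r ∈ N.R, 0 < k r) →
          ∀ c : ι → ℝ, (∀ i, 0 < c i) → PermanentOn N k c) :=
  ⟨fun _ _ _ _ N₁ N₂ γ hγ => CascadeClosure.result N₁ N₂ γ hγ,
    fun _ _ N hN => TowerPermanent.result N hN⟩

end Vale.Agent.Results.P072.AllResults
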