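import Vale.Agent.Lib.P072.Logistic

namespace Vale.Agent.Results.P072.CascadeClosure

open Vale.Agent.P072

/-- Catalytic cascades preserve weak reversibility and (variable-rate) permanence; in particular
a cascade of variable-rate permanent networks is permanent, in the sense of the problem, on every
positive stoichiometric class and for all positive rate constants. -/
theorem result {ι κ : Type} [Fintype ι] [Fintype κ] (N₁ : Network ι) (N₂ : Network κ)
    (γ : Cplx κ → Cplx ι) (hγ : ∀ r ∈ N₂.R, γ r.1 = γ r.2) :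
    (WeaklyReversible N₁ → WeaklyReversible N₂ → WeaklyReversible (cascade N₁ N₂ γ)) ∧
    (VarPermanent N₁ → VarPermanent N₂ →
      VarPermanent (cascade N₁ N₂ γ) ∧
      ∀ k : Cplx (ι ⊕ κ) × Cplx (ι ⊕ κ) → ℝ, (∀ r ∈ (cascade N₁ N₂ γ).R, 0 < k r) →
        ∀ c : ι ⊕ κ → ℝ, (∀ i, 0 < c i) → PermanentOn (cascade N₁ N₂ γ) k c) := by
  refine ⟨weaklyReversible_cascade γ, fun h₁ h₂ => ?_⟩
  have h := varPermanent_cascade N₁ N₂ γ hγ h₁ h₂
  exact ⟨h, fun k hk c hc => h.permanentOn k hk c hc⟩

end Vale.Agent.Results.P072.CascadeClosure
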